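import Vale.Agent.P086.Main

namespace Vale.Agent.Results.P086.AllIso

open Vale.Agent.P086

theorem result (m n : ℕ∞) (hm : 3 ≤ m) (hn : 3 ≤ n) (H K : Type)
    [NormedAddCommGroup H] [InnerProductSpace ℂ H] [CompleteSpace H]
    [NormedAddCommGroup K] [InnerProductSpace ℂ K] [CompleteSpace K]
    (δ : HilbertBasis (F m) ℂ H) (ε : HilbertBasis (F n) ℂ K) :
    Nonempty (groupVN δ ≃⋆ₐ[ℂ] groupVN ε) :=
  main hm hn δ ε

end Vale.Agent.Results.P086.AllIso
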